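import Vale.Agent.P254.S.H130.AlgM

/-!
# P254, line (SP_0), block SP-ALG: the pointwise inequality for a general convex weight

`q m = m * p m` convex on `(0, ∞)`; `D` a totally symmetric 3-tensor, `M = U diag(m) Uᵀ`:

`∑ p(M)_ij tr(M⁻¹ D_i M⁻¹ D_j) + ∑ (M⁻¹)_ab tr(D_a Dp(M)[D_b]) ≥ ∑_a ∑_ij q[m_i,m_j]/(m_i m_j) (Uᵀ D_a U)_ij²`.
-/

open Matrix Finset

noncomputable section

namespace Vale.Agent.P254.H127

open Vale.Agent.P254.S130

/-! ### divided differences of a function with monotone derivative -/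

/-- monotonicity of the divided difference -/
theorem dd_mono {q q' : ℝ → ℝ} (hq : ∀ m, 0 < m → HasDerivAt q (q' m) m)
    (hmono : MonotoneOn q' (Set.Ioi 0)) {x y z : ℝ} (hx : 0 < x) (hy : 0 < y) (hz : 0 < z)
    (hxy : x ≤ y) : dd q q' x z ≤ dd q q' y z := by
  have hconv : ConvexOn ℝ (Set.Ioi 0) q := by
    apply MonotoneOn.convexOn_of_deriv (convex_Ioi 0)
    · exact fun m hm => (hq m hm).continuousAt.continuousWithinAt
    · intro m hm
      rw [interior_Ioi] at hm
      exact (hq m hm).differentiableAt.differentiableWithinAt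
    · rw [interior_Ioi]
      intro a ha b hb hab
      rw [(hq a ha).deriv, (hq b hb).deriv]
      exact hmono ha hb hab
  rcases eq_or_ne x z with rfl | hxz
  · rcases eq_or_ne x y with rfl | hne
    · exact le_rfl
    · have hlt : x < y := lt_of_le_of_ne hxy hne
      unfold dd
      rw [if_pos rfl, if_neg hne.symm]
      have := hconv.le_slope_of_hasDerivAt (x := x) (y := y) hx hy hlt (hq x hx)
      rwa [slope_def_field] at this
  · rcases eq_or_ne y z with rfl | hyz
    · have hlt : x < y := lt_of_le_of_ne hxy hxz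
      unfold dd
      rw [if_pos rfl, if_neg hxz]
      have := hconv.slope_le_of_hasDerivAt (x := x) (y := y) hx hy hlt (hq y hy)
      rw [slope_def_field] at this
      rw [← neg_sub (q y), ← neg_sub y, neg_div_neg_eq]
      exact this
    · unfold dd
      rw [if_neg hxz, if_neg hyz]
      exact hconv.secant_mono hz hx hy hxz hyz hxy

/-- `q[x,y] = p y + x p[x,y]` for `q m = m p m` -/
theorem dd_mul {p p' q q' : ℝ → ℝ} (h0 : ∀ m, q m = m * p m) (h1 : ∀ m, q' m = p m + m * p' m)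
    (x y : ℝ) : dd q q' x y = p y + x * dd p p' x y := by
  unfold dd
  by_cases h : x = y
  · rw [if_pos h, if_pos h, h1, h]
  · rw [if_neg h, if_neg h, h0, h0]
    have : x - y ≠ 0 := sub_ne_zero.2 h
    field_simp
    ring

/-- the symmetrised weight inequality for a convex weight (Chebyshev) -/
theorem weight_conv {p p' q q' : ℝ → ℝ} (h0 : ∀ m, q m = m * p m)
    (h1 : ∀ m, q' m = p m + m * p' m)
    (hmono : ∀ x y z : ℝ, 0 < x → 0 < y → 0 < z → x ≤ y → dd q q' x z ≤ dd q q' y z)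
    {x y z : ℝ} (hx : 0 < x) (hy : 0 < y) (hz : 0 < z) :
    dd q q' x y / (x * y) + dd q q' y z / (y * z) + dd q q' z x / (z * x) ≤
      (p x / (y * z) + dd p p' x y / z) + (p y / (z * x) + dd p p' y z / x) +
        (p z / (x * y) + dd p p' z x / y) := by
  have cheb : ∀ a b c : ℝ, 0 < a → 0 < b → 0 < c →
      0 ≤ (a - b) * (dd q q' a c - dd q q' b c) := by
    intro a b c ha hb hc
    rcases le_total a b with h | h
    · exact mul_nonneg_of_nonpos_of_nonpos (sub_nonpos.2 h)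
        (sub_nonpos.2 (hmono a b c ha hb hc h))
    · exact mul_nonneg (sub_nonneg.2 h) (sub_nonneg.2 (hmono b a c hb ha hc h))
  have c1 := cheb x y z hx hy hz
  have c2 := cheb y z x hy hz hx
  have c3 := cheb z x y hz hx hy
  have s1 := dd_comm q q' y x
  have s2 := dd_comm q q' z y
  have s3 := dd_comm q q' x z
  have t1 := dd_comm p p' y x
  have t2 := dd_comm p p' z y
  have t3 := dd_comm p p' x z
  have e1 := dd_mul h0 h1 x y
  have e2 := dd_mul h0 h1 y z
  have e3 := dd_mul h0 h1 z x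
  have e1' := dd_mul h0 h1 y x
  have e2' := dd_mul h0 h1 z y
  have e3' := dd_mul h0 h1 x z
  rw [← sub_nonneg]
  have key : (p x / (y * z) + dd p p' x y / z) + (p y / (z * x) + dd p p' y z / x) +
        (p z / (x * y) + dd p p' z x / y) -
      (dd q q' x y / (x * y) + dd q q' y z / (y * z) + dd q q' z x / (z * x)) =
      (p x * x + p y * y + p z * z + x * y * dd p p' x y + y * z * dd p p' y z +
        z * x * dd p p' z x - z * dd q q' x y - x * dd q q' y z - y * dd q q' z x) /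
        (x * y * z) := by
    field_simp
    ring
  rw [key]
  apply div_nonneg _ (by positivity)
  rw [t1] at e1'
  rw [t2] at e2'
  rw [t3] at e3'
  rw [s1] at e1'
  rw [s2] at e2'
  rw [s3] at e3'
  rw [s3] at c1
  rw [s1] at c2
  rw [s2] at c3
  have g1 : p y = dd q q' x y - x * dd p p' x y := by linarith
  have g2 : p z = dd q q' y z - y * dd p p' y z := by linarith
  have g3 : p x = dd q q' z x - z * dd p p' z x := by linarith
  have g1' : p x = dd q q' x y - y * dd p p' x y := by linarith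
  have g2' : p y = dd q q' y z - z * dd p p' y z := by linarith
  have g3' : p z = dd q q' z x - x * dd p p' z x := by linarith
  have f : 2 * (p x * x + p y * y + p z * z + x * y * dd p p' x y + y * z * dd p p' y z +
        z * x * dd p p' z x) = (x + y) * dd q q' x y + (y + z) * dd q q' y z +
        (z + x) * dd q q' z x := by
    linear_combination y * g1 + z * g2 + x * g3 + x * g1' + y * g2' + z * g3'
  nlinarith [c1, c2, c3, f]

variable {ι : Type*} [Fintype ι]

/-- **diagonal form** -/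
theorem alg_diag_conv {p p' q q' : ℝ → ℝ} (h0 : ∀ m, q m = m * p m)
    (h1' : ∀ m, q' m = p m + m * p' m)
    (hmono : ∀ x y z : ℝ, 0 < x → 0 < y → 0 < z → x ≤ y → dd q q' x z ≤ dd q q' y z)
    {m : ι → ℝ} (hm : ∀ i, 0 < m i) {Φ : ι → ι → ι → ℝ} (h1 : ∀ i j k, Φ i j k = Φ j i k)
    (h2 : ∀ i j k, Φ i j k = Φ i k j) :
    ∑ i, ∑ j, ∑ k, Φ i j k ^ 2 * (dd q q' (m i) (m j) / (m i * m j)) ≤
      ∑ i, ∑ j, ∑ k, Φ i j k ^ 2 * (p (m i) / (m j * m k) + dd p p' (m i) (m j) / m k) := by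
  have hcyc : ∀ i j k, Φ j k i = Φ i j k := by
    intro i j k
    rw [h2 j k i, h1 j i k]
  have h3 : ∀ w : ι → ι → ι → ℝ, 3 * ∑ i, ∑ j, ∑ k, Φ i j k ^ 2 * w i j k =
      ∑ i, ∑ j, ∑ k, Φ i j k ^ 2 * (w i j k + w j k i + w k i j) := by
    intro w
    have e1 : ∑ i, ∑ j, ∑ k, Φ i j k ^ 2 * w i j k =
        ∑ i, ∑ j, ∑ k, Φ i j k ^ 2 * w j k i := by
      rw [sum_rot]
      refine Finset.sum_congr rfl fun i _ => Finset.sum_congr rfl fun j _ =>
        Finset.sum_congr rfl fun k _ => ?_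
      rw [hcyc]
    have e2 : ∑ i, ∑ j, ∑ k, Φ i j k ^ 2 * w j k i =
        ∑ i, ∑ j, ∑ k, Φ i j k ^ 2 * w k i j := by
      rw [sum_rot]
      refine Finset.sum_congr rfl fun i _ => Finset.sum_congr rfl fun j _ =>
        Finset.sum_congr rfl fun k _ => ?_
      rw [hcyc]
    have e3 : ∑ i, ∑ j, ∑ k, Φ i j k ^ 2 * (w i j k + w j k i + w k i j) =
        ∑ i, ∑ j, ∑ k, Φ i j k ^ 2 * w i j k + ∑ i, ∑ j, ∑ k, Φ i j k ^ 2 * w j k i +
        ∑ i, ∑ j, ∑ k, Φ i j k ^ 2 * w k i j := by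
      simp only [← Finset.sum_add_distrib]
      refine Finset.sum_congr rfl fun i _ => Finset.sum_congr rfl fun j _ =>
        Finset.sum_congr rfl fun k _ => ?_
      ring
    rw [e3, ← e2, ← e1]
    ring
  have key : 3 * ∑ i, ∑ j, ∑ k, Φ i j k ^ 2 * (dd q q' (m i) (m j) / (m i * m j)) ≤
      3 * ∑ i, ∑ j, ∑ k, Φ i j k ^ 2 * (p (m i) / (m j * m k) + dd p p' (m i) (m j) / m k) := by
    rw [h3 (fun i j k => dd q q' (m i) (m j) / (m i * m j)),
      h3 (fun i j k => p (m i) / (m j * m k) + dd p p' (m i) (m j) / m k)]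
    refine Finset.sum_le_sum fun i _ => Finset.sum_le_sum fun j _ =>
      Finset.sum_le_sum fun k _ => mul_le_mul_of_nonneg_left ?_ (sq_nonneg _)
    exact weight_conv h0 h1' hmono (hm i) (hm j) (hm k)
  linarith

variable [DecidableEq ι]

/-- `f(M)` for `M = U diag(m) Uᵀ` -/
def fM (f : ℝ → ℝ) (U : Matrix ι ι ℝ) (m : ι → ℝ) : Matrix ι ι ℝ :=
  U * diagonal (fun i => f (m i)) * Uᵀ

/-- the derivative of `f(M)` in the direction `X` (Daleckii-Krein) -/
def dfM (f f' : ℝ → ℝ) (U : Matrix ι ι ℝ) (m : ι → ℝ) (X : Matrix ι ι ℝ) : Matrix ι ι ℝ :=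
  U * (Matrix.of fun i j => dd f f' (m i) (m j) * (Uᵀ * X * U) i j) * Uᵀ

theorem dfM_add (f f' : ℝ → ℝ) (U : Matrix ι ι ℝ) (m : ι → ℝ) (X Y : Matrix ι ι ℝ) :
    dfM f f' U m (X + Y) = dfM f f' U m X + dfM f f' U m Y := by
  unfold dfM
  rw [← Matrix.add_mul, ← Matrix.mul_add]
  congr 2
  ext i j
  simp only [Matrix.of_apply, Matrix.add_apply, Matrix.add_mul, mul_add]

theorem dfM_smul (f f' : ℝ → ℝ) (U : Matrix ι ι ℝ) (m : ι → ℝ) (c : ℝ) (X : Matrix ι ι ℝ) :
    dfM f f' U m (c • X) = c • dfM f f' U m X := by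
  unfold dfM
  rw [← Matrix.smul_mul, ← Matrix.mul_smul]
  congr 2
  ext i j
  simp only [Matrix.of_apply, Matrix.smul_apply, Matrix.mul_smul, Matrix.smul_mul, smul_eq_mul]
  ring

/-- the bilinear form `tr (X Df(M)[Y])` -/
def dB (f f' : ℝ → ℝ) (U : Matrix ι ι ℝ) (m : ι → ℝ) :
    Matrix ι ι ℝ →ₗ[ℝ] Matrix ι ι ℝ →ₗ[ℝ] ℝ :=
  LinearMap.mk₂ ℝ (fun X Y => (X * dfM f f' U m Y).trace)
    (fun X Y Z => by simp only [add_mul, trace_add])
    (fun c X Y => by rw [Matrix.smul_mul, trace_smul])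
    (fun X Y Z => by rw [dfM_add, mul_add, trace_add])
    (fun c X Y => by rw [dfM_smul, Matrix.mul_smul, trace_smul])

theorem dB_apply (f f' : ℝ → ℝ) (U : Matrix ι ι ℝ) (m : ι → ℝ) (X Y : Matrix ι ι ℝ) :
    dB f f' U m X Y = (X * dfM f f' U m Y).trace := rfl

theorem dB_diag (f f' : ℝ → ℝ) {U : Matrix ι ι ℝ} (m : ι → ℝ) {E : Matrix ι ι ℝ}
    (hE : Eᵀ = E) :
    dB f f' U m E E = ∑ i, ∑ j, dd f f' (m i) (m j) * (Uᵀ * E * U) i j ^ 2 := by
  set Φ := Uᵀ * E * U with hΦ
  have hs : Φᵀ = Φ := by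
    rw [hΦ, transpose_mul, transpose_mul, transpose_transpose, hE, Matrix.mul_assoc]
  rw [dB_apply]
  unfold dfM
  rw [← hΦ]
  have h1 : E * (U * (Matrix.of fun i j => dd f f' (m i) (m j) * Φ i j) * Uᵀ) =
      E * U * (Matrix.of fun i j => dd f f' (m i) (m j) * Φ i j) * Uᵀ := by
    simp only [Matrix.mul_assoc]
  rw [h1, trace_mul_comm]
  have h2 : Uᵀ * (E * U * (Matrix.of fun i j => dd f f' (m i) (m j) * Φ i j)) =
      Φ * (Matrix.of fun i j => dd f f' (m i) (m j) * Φ i j) := by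
    rw [hΦ]; simp only [Matrix.mul_assoc]
  rw [h2, trace]
  refine Finset.sum_congr rfl fun i _ => ?_
  rw [diag_apply, Matrix.mul_apply]
  refine Finset.sum_congr rfl fun j _ => ?_
  have : Φ j i = Φ i j := congrFun (congrFun hs i) j
  rw [Matrix.of_apply, this, dd_comm]
  ring

/-- **matrix form**: `M = U diag(m) Uᵀ` positive definite, `D` a totally symmetric 3-tensor. -/
theorem alg_mat_conv {p p' q q' : ℝ → ℝ} (h0 : ∀ m, q m = m * p m)
    (h1' : ∀ m, q' m = p m + m * p' m)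
    (hmono : ∀ x y z : ℝ, 0 < x → 0 < y → 0 < z → x ≤ y → dd q q' x z ≤ dd q q' y z)
    {U M : Matrix ι ι ℝ} {m : ι → ℝ} (hm : ∀ i, 0 < m i) (hU : Uᵀ * U = 1)
    (hM : M = U * diagonal m * Uᵀ) {D : ι → Matrix ι ι ℝ} (h1 : ∀ i j k, D i j k = D j i k)
    (h2 : ∀ i j k, D i j k = D i k j) :
    ∑ a, ∑ i, ∑ j, dd q q' (m i) (m j) / (m i * m j) * (Uᵀ * D a * U) i j ^ 2 ≤
      ∑ i, ∑ j, fM p U m i j * (M⁻¹ * D i * M⁻¹ * D j).trace +
        ∑ a, ∑ b, M⁻¹ a b * (D a * dfM p p' U m (D b)).trace := by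
  have hU' : U * Uᵀ = 1 := mul_eq_one_comm.1 hU
  have hfun : ∀ p : ι → ℝ, ∀ q : ι → ℝ, U * diagonal p * Uᵀ * (U * diagonal q * Uᵀ) =
      U * diagonal (fun i => p i * q i) * Uᵀ := by
    intro p q
    calc U * diagonal p * Uᵀ * (U * diagonal q * Uᵀ) =
          U * diagonal p * (Uᵀ * U) * diagonal q * Uᵀ := by simp only [Matrix.mul_assoc]
      _ = _ := by rw [hU, Matrix.mul_one, Matrix.mul_assoc U, diagonal_mul_diagonal]
  have hone : (1 : Matrix ι ι ℝ) = U * diagonal (fun _ => (1 : ℝ)) * Uᵀ := by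
    rw [diagonal_one, Matrix.mul_one, hU']
  have hinv : M⁻¹ = U * diagonal (fun i => 1 / m i) * Uᵀ := by
    apply inv_eq_right_inv
    rw [hM, hfun, hone]
    congr 3
    funext i
    exact mul_one_div_cancel (hm i).ne'
  -- the rotated tensor
  set E : ι → Matrix ι ι ℝ := fun k => ∑ a, U a k • D a with hE
  have hDs : ∀ a, (D a)ᵀ = D a := fun a => by
    ext i j
    exact h2 a j i
  have hEs : ∀ k, (E k)ᵀ = E k := fun k => by
    rw [hE]
    simp only [transpose_sum, transpose_smul, hDs]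
  set Φ : ι → ι → ι → ℝ := fun k i j => (Uᵀ * E k * U) i j with hΦ
  have hΦe : ∀ k i j, Φ k i j = ∑ a, ∑ p, ∑ q, U a k * U p i * U q j * D a p q := by
    intro k i j
    have e1 : ∀ p q, E k p q = ∑ a, U a k * D a p q := by
      intro p q
      simp only [hE, Matrix.sum_apply, Matrix.smul_apply, smul_eq_mul]
    have e2 : Φ k i j = ∑ q, ∑ p, ∑ a, U a k * U p i * U q j * D a p q := by
      change (Uᵀ * E k * U) i j = _
      rw [Matrix.mul_apply]
      refine Finset.sum_congr rfl fun q _ => ?_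
      rw [Matrix.mul_apply, Finset.sum_mul]
      refine Finset.sum_congr rfl fun p _ => ?_
      rw [Matrix.transpose_apply, e1, Finset.mul_sum, Finset.sum_mul]
      refine Finset.sum_congr rfl fun a _ => ?_
      ring
    rw [e2, Finset.sum_comm]
    calc ∑ p, ∑ q, ∑ a, U a k * U p i * U q j * D a p q
        = ∑ p, ∑ a, ∑ q, U a k * U p i * U q j * D a p q :=
          Finset.sum_congr rfl fun p _ => Finset.sum_comm
      _ = _ := Finset.sum_comm
  have hΦ1 : ∀ k i j, Φ k i j = Φ i k j := by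
    intro k i j
    rw [hΦe, hΦe, Finset.sum_comm]
    refine Finset.sum_congr rfl fun a _ => Finset.sum_congr rfl fun p _ =>
      Finset.sum_congr rfl fun q _ => ?_
    rw [h1 p a q]
    ring
  have hΦ2 : ∀ k i j, Φ k i j = Φ k j i := by
    intro k i j
    rw [hΦe, hΦe]
    refine Finset.sum_congr rfl fun a _ => ?_
    rw [Finset.sum_comm]
    refine Finset.sum_congr rfl fun p _ =>
      Finset.sum_congr rfl fun q _ => ?_
    rw [h2 a q p]
    ring
  -- the first sum
  have hT1 : ∑ i, ∑ j, fM p U m i j * (M⁻¹ * D i * M⁻¹ * D j).trace =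
      ∑ k, ∑ i, ∑ j, Φ k i j ^ 2 * (p (m k) / (m i * m j)) := by
    have e1 := quad_sum (trB M⁻¹ M⁻¹) U (fun i => p (m i)) D
    simp only [trB_apply] at e1
    unfold fM
    rw [e1]
    refine Finset.sum_congr rfl fun k _ => ?_
    rw [← trB_apply, hinv, trB_diag _ _ (hEs k), Finset.mul_sum]
    refine Finset.sum_congr rfl fun i _ => ?_
    rw [Finset.mul_sum]
    refine Finset.sum_congr rfl fun j _ => ?_
    change p (m k) * (1 / m i * (1 / m j) * Φ k i j ^ 2) = _
    have := (hm i).ne'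
    have := (hm j).ne'
    field_simp
  -- the second sum
  have hT2 : ∑ a, ∑ b, M⁻¹ a b * (D a * dfM p p' U m (D b)).trace =
      ∑ k, ∑ i, ∑ j, Φ k i j ^ 2 * (dd p p' (m i) (m j) / m k) := by
    have e1 := quad_sum (dB p p' U m) U (fun i => 1 / m i) D
    rw [← hinv] at e1
    simp only [dB_apply] at e1
    rw [e1]
    refine Finset.sum_congr rfl fun k _ => ?_
    rw [← dB_apply, dB_diag p p' m (hEs k), Finset.mul_sum]
    refine Finset.sum_congr rfl fun i _ => ?_
    rw [Finset.mul_sum]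
    refine Finset.sum_congr rfl fun j _ => ?_
    change 1 / m k * (dd p p' (m i) (m j) * Φ k i j ^ 2) = _
    have := (hm k).ne'
    field_simp
  -- the left hand side
  have hL : ∑ a, ∑ i, ∑ j, dd q q' (m i) (m j) / (m i * m j) * (Uᵀ * D a * U) i j ^ 2 =
      ∑ k, ∑ i, ∑ j, Φ k i j ^ 2 * (dd q q' (m i) (m j) / (m i * m j)) := by
    have e1 : ∀ i j, ∑ k, Φ k i j ^ 2 = ∑ a, (Uᵀ * D a * U) i j ^ 2 := by
      intro i j
      rw [← sum_sq_orth hU' (fun a => (Uᵀ * D a * U) i j)]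
      refine Finset.sum_congr rfl fun k _ => ?_
      congr 1
      simp only [hΦ, hE]
      rw [Matrix.mul_sum, Matrix.sum_mul, Matrix.sum_apply]
      refine Finset.sum_congr rfl fun a _ => ?_
      rw [Matrix.mul_smul, Matrix.smul_mul, Matrix.smul_apply, smul_eq_mul]
    calc ∑ a, ∑ i, ∑ j, dd q q' (m i) (m j) / (m i * m j) * (Uᵀ * D a * U) i j ^ 2
        = ∑ i, ∑ j, dd q q' (m i) (m j) / (m i * m j) * ∑ a, (Uᵀ * D a * U) i j ^ 2 := by
          rw [Finset.sum_comm]
          refine Finset.sum_congr rfl fun i _ => ?_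
          rw [Finset.sum_comm]
          refine Finset.sum_congr rfl fun j _ => ?_
          rw [Finset.mul_sum]
      _ = ∑ i, ∑ j, dd q q' (m i) (m j) / (m i * m j) * ∑ k, Φ k i j ^ 2 := by simp only [e1]
      _ = _ := by
          rw [show ∑ k, ∑ i, ∑ j, Φ k i j ^ 2 * (dd q q' (m i) (m j) / (m i * m j)) =
            ∑ i, ∑ k, ∑ j, Φ k i j ^ 2 * (dd q q' (m i) (m j) / (m i * m j)) from
              Finset.sum_comm]
          refine Finset.sum_congr rfl fun i _ => ?_
          rw [Finset.sum_comm]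
          refine Finset.sum_congr rfl fun j _ => ?_
          rw [Finset.mul_sum]
          refine Finset.sum_congr rfl fun k _ => ?_
          ring
  rw [hT1, hT2, hL]
  have key := alg_diag_conv h0 h1' hmono hm hΦ1 hΦ2
  have hcyc : ∀ i j k, Φ j k i = Φ i j k := by
    intro i j k
    rw [hΦ2 j k i, hΦ1 j i k]
  have r0 : ∀ w : ι → ι → ι → ℝ, ∑ k, ∑ i, ∑ j, Φ k i j ^ 2 * w i j k =
      ∑ i, ∑ j, ∑ k, Φ i j k ^ 2 * w i j k := by
    intro w
    rw [sum_rot (fun k i j => Φ k i j ^ 2 * w i j k),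
      sum_rot (fun i j k => Φ j k i ^ 2 * w k i j)]
    refine Finset.sum_congr rfl fun i _ => Finset.sum_congr rfl fun j _ =>
      Finset.sum_congr rfl fun k _ => ?_
    rw [← hcyc k i j]
  have r1 := r0 (fun i j _ => dd q q' (m i) (m j) / (m i * m j))
  have r2 := r0 (fun i j k => dd p p' (m i) (m j) / m k)
  rw [r1, r2]
  refine key.trans (le_of_eq ?_)
  simp only [mul_add, Finset.sum_add_distrib]

end Vale.Agent.P254.H127
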